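import Vale.Agent.P125.Defs

namespace Vale.Agent.P125

open Finset

section Inv

variable {S J : Type} [Fintype S] [DecidableEq S] [Fintype J]

noncomputable def invP (σ : J → S → S) : Matrix S S ℝ :=
  fun a b => (Fintype.card J : ℝ)⁻¹ * ∑ j, if σ j a = b then (1 : ℝ) else 0

lemma invP_sum_mul (σ : J → S → S) (a : S) (G : S → ℝ) :
    ∑ b, invP σ a b * G b = (Fintype.card J : ℝ)⁻¹ * ∑ j, G (σ j a) := by
  unfold invP
  simp_rw [mul_assoc, ← Finset.mul_sum, Finset.sum_mul]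
  congr 1
  rw [Finset.sum_comm]
  refine Finset.sum_congr rfl fun j _ => ?_
  simp

lemma invP_symm (σ : J → S → S) (hσ : ∀ j, Function.Involutive (σ j)) (a b : S) :
    invP σ a b = invP σ b a := by
  unfold invP
  congr 1
  refine Finset.sum_congr rfl fun j _ => ?_
  have : σ j a = b ↔ σ j b = a := by
    constructor
    · intro h; rw [← h, hσ j a]
    · intro h; rw [← h, hσ j b]
  simp [this]

lemma invP_isRevChain [Nonempty S] [Nonempty J] (σ : J → S → S)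
    (hσ : ∀ j, Function.Involutive (σ j)) :
    IsRevChain (fun _ : S => (Fintype.card S : ℝ)⁻¹) (invP σ) where
  pi_nonneg := fun _ => by positivity
  pi_sum := by
    simp
  P_nonneg := fun a b => by
    unfold invP
    refine mul_nonneg (by positivity) (Finset.sum_nonneg fun j _ => ?_)
    split_ifs <;> norm_num
  P_sum := fun a => by
    have := invP_sum_mul σ a (fun _ => (1 : ℝ))
    simp only [mul_one] at this
    rw [this]
    simp
  reversible := fun a b => by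
    rw [invP_symm σ hσ a b]

lemma inv_chain_ineq [Nonempty S] [Nonempty J] {X : Type*} [NormedAddCommGroup X] {p K : ℝ}
    (h : HasMarkovTypeWith X p K) (σ : J → S → S)
    (hσ : ∀ j, Function.Involutive (σ j)) (f : S → X) :
    ∑ a, ∑ j, ∑ k, ‖f (σ k (σ j a)) - f a‖ ^ p ≤
      K ^ p * 2 * (Fintype.card J : ℝ) * ∑ a, ∑ j, ‖f (σ j a) - f a‖ ^ p := by
  have h2 := h S (fun _ : S => (Fintype.card S : ℝ)⁻¹) (invP σ) (invP_isRevChain σ hσ) f 2
    (by norm_num)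
  have hS : (0 : ℝ) < Fintype.card S := by exact_mod_cast Fintype.card_pos
  have hJ : (0 : ℝ) < Fintype.card J := by exact_mod_cast Fintype.card_pos
  have e1 : ∀ a : S, ∑ b, (Fintype.card S : ℝ)⁻¹ * invP σ a b * ‖f b - f a‖ ^ p =
      (Fintype.card S : ℝ)⁻¹ * ((Fintype.card J : ℝ)⁻¹ * ∑ j, ‖f (σ j a) - f a‖ ^ p) := by
    intro a
    simp_rw [mul_assoc, ← Finset.mul_sum]
    rw [invP_sum_mul σ a (fun b => ‖f b - f a‖ ^ p)]
  have e2 : ∀ a : S, ∑ b, (Fintype.card S : ℝ)⁻¹ * (invP σ ^ 2) a b * ‖f b - f a‖ ^ p =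
      (Fintype.card S : ℝ)⁻¹ * ((Fintype.card J : ℝ)⁻¹ * ((Fintype.card J : ℝ)⁻¹ *
        ∑ j, ∑ k, ‖f (σ k (σ j a)) - f a‖ ^ p)) := by
    intro a
    simp_rw [mul_assoc, ← Finset.mul_sum]
    congr 1
    simp_rw [pow_two, Matrix.mul_apply, Finset.sum_mul]
    rw [Finset.sum_comm]
    simp_rw [mul_assoc, ← Finset.mul_sum]
    simp_rw [invP_sum_mul σ _ (fun b => ‖f b - f a‖ ^ p)]
    rw [invP_sum_mul σ a (fun c => (Fintype.card J : ℝ)⁻¹ * ∑ k, ‖f (σ k c) - f a‖ ^ p)]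
    simp_rw [← Finset.mul_sum]
  simp_rw [e1, e2, ← Finset.mul_sum] at h2
  have h3 : (Fintype.card S : ℝ)⁻¹ * ((Fintype.card J : ℝ)⁻¹ * ((Fintype.card J : ℝ)⁻¹ *
      ∑ a, ∑ j, ∑ k, ‖f (σ k (σ j a)) - f a‖ ^ p)) =
      ((Fintype.card S : ℝ)⁻¹ * ((Fintype.card J : ℝ)⁻¹ * (Fintype.card J : ℝ)⁻¹)) *
      ∑ a, ∑ j, ∑ k, ‖f (σ k (σ j a)) - f a‖ ^ p := by ring
  have h4 : K ^ p * ((2 : ℕ) : ℝ) * ((Fintype.card S : ℝ)⁻¹ * ((Fintype.card J : ℝ)⁻¹ *
      ∑ a, ∑ j, ‖f (σ j a) - f a‖ ^ p)) =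
      ((Fintype.card S : ℝ)⁻¹ * ((Fintype.card J : ℝ)⁻¹ * (Fintype.card J : ℝ)⁻¹)) *
      (K ^ p * 2 * (Fintype.card J : ℝ) * ∑ a, ∑ j, ‖f (σ j a) - f a‖ ^ p) := by
    field_simp
    push_cast
    ring
  rw [h3, h4] at h2
  exact le_of_mul_le_mul_left h2 (by positivity)

end Inv

end Vale.Agent.P125
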