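import Vale.Agent.P125.Chain

namespace Vale.Agent.P125

open Finset

variable {X : Type*} [NormedAddCommGroup X] [NormedSpace ℝ X] {n : ℕ}

def flipAt (j : Fin n) (a : Fin n → Bool) : Fin n → Bool := Function.update a j (!a j)

lemma flipAt_invol (j : Fin n) : Function.Involutive (flipAt j) := by
  intro a
  funext i
  by_cases h : i = j
  · subst h; simp [flipAt]
  · simp [flipAt, Function.update_of_ne h]

lemma flipAt_same (j : Fin n) (a : Fin n → Bool) : flipAt j a j = !a j := by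
  simp [flipAt]

lemma flipAt_ne {j k : Fin n} (h : k ≠ j) (a : Fin n → Bool) : flipAt j a k = a k := by
  simp [flipAt, Function.update_of_ne h]

noncomputable def cubeMap (x : Fin n → X) (a : Fin n → Bool) : X :=
  ∑ i, if a i then x i else 0

noncomputable def sg (b : Bool) : ℝ := if b then -1 else 1

lemma cubeMap_flipAt (x : Fin n → X) (j : Fin n) (a : Fin n → Bool) :
    cubeMap x (flipAt j a) = cubeMap x a + sg (a j) • x j := by
  have h : ∀ i, (if flipAt j a i then x i else 0) =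
      (if a i then x i else 0) + (if i = j then sg (a j) • x j else 0) := by
    intro i
    by_cases h : i = j
    · subst h
      rw [flipAt_same]
      cases a i <;> simp [sg]
    · rw [flipAt_ne h]
      simp [h]
  unfold cubeMap
  simp_rw [h, Finset.sum_add_distrib]
  simp

lemma norm_sg_smul (b : Bool) (v : X) : ‖sg b • v‖ = ‖v‖ := by
  cases b <;> simp [sg]

lemma pair_sum (x : Fin n → X) (p : ℝ) {j k : Fin n} (hjk : k ≠ j) :
    2 * ∑ a : Fin n → Bool, ‖cubeMap x (flipAt k (flipAt j a)) - cubeMap x a‖ ^ p =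
      (2 : ℝ) ^ n * (‖x j + x k‖ ^ p + ‖x j - x k‖ ^ p) := by
  have e : ∀ a : Fin n → Bool, cubeMap x (flipAt k (flipAt j a)) - cubeMap x a =
      sg (a j) • x j + sg (a k) • x k := by
    intro a
    rw [cubeMap_flipAt, cubeMap_flipAt, flipAt_ne hjk]
    abel
  simp_rw [e]
  have hre : ∑ a : Fin n → Bool, ‖sg (a j) • x j + sg (a k) • x k‖ ^ p =
      ∑ a : Fin n → Bool, ‖sg ((flipAt j a) j) • x j + sg ((flipAt j a) k) • x k‖ ^ p :=
    (Equiv.sum_comp ((flipAt_invol j).toPerm)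
      (fun a : Fin n → Bool => ‖sg (a j) • x j + sg (a k) • x k‖ ^ p)).symm
  have hpt : ∀ a : Fin n → Bool, ‖sg (a j) • x j + sg (a k) • x k‖ ^ p +
      ‖sg ((flipAt j a) j) • x j + sg ((flipAt j a) k) • x k‖ ^ p =
      ‖x j + x k‖ ^ p + ‖x j - x k‖ ^ p := by
    intro a
    rw [flipAt_same, flipAt_ne hjk]
    have h1 : ‖-x j + -x k‖ = ‖x j + x k‖ := by
      rw [← neg_add, norm_neg]
    have h2 : ‖-x j + x k‖ = ‖x j - x k‖ := by
      rw [← norm_neg]; congr 1; abel
    have h3 : ‖x j + -x k‖ = ‖x j - x k‖ := by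
      rw [sub_eq_add_neg]
    cases a j <;> cases a k
    · simp only [sg, Bool.not_false, Bool.false_eq_true, if_false, if_true, one_smul, neg_smul, h2]
    · simp only [sg, Bool.not_false, Bool.false_eq_true, if_false, if_true, one_smul, neg_smul,
        h1, h3]
      ring
    · simp only [sg, Bool.not_true, Bool.false_eq_true, if_false, if_true, one_smul, neg_smul, h2]
      ring
    · simp only [sg, Bool.not_true, Bool.false_eq_true, if_false, if_true, one_smul, neg_smul,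
        h1, h3]
  calc 2 * ∑ a : Fin n → Bool, ‖sg (a j) • x j + sg (a k) • x k‖ ^ p
      = ∑ a : Fin n → Bool, ‖sg (a j) • x j + sg (a k) • x k‖ ^ p +
        ∑ a : Fin n → Bool, ‖sg ((flipAt j a) j) • x j + sg ((flipAt j a) k) • x k‖ ^ p := by
        rw [← hre]; ring
    _ = ∑ a : Fin n → Bool, (‖x j + x k‖ ^ p + ‖x j - x k‖ ^ p) := by
        rw [← Finset.sum_add_distrib]
        exact Finset.sum_congr rfl fun a _ => hpt a
    _ = (2 : ℝ) ^ n * (‖x j + x k‖ ^ p + ‖x j - x k‖ ^ p) := by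
        simp [mul_add]

theorem pair_ineq {p K : ℝ} (h : HasMarkovTypeWith X p K) (x : Fin n → X) :
    ∑ j, ∑ k, (if k = j then 0 else ‖x j + x k‖ ^ p + ‖x j - x k‖ ^ p) ≤
      4 * K ^ p * (n : ℝ) * ∑ j, ‖x j‖ ^ p := by
  rcases Nat.eq_zero_or_pos n with hn | hn
  · subst hn; simp
  have : Nonempty (Fin n) := ⟨⟨0, hn⟩⟩
  have h1 := inv_chain_ineq h (fun j : Fin n => flipAt j) flipAt_invol (cubeMap x)
  have hR : ∑ a : Fin n → Bool, ∑ j, ‖cubeMap x (flipAt j a) - cubeMap x a‖ ^ p =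
      (2 : ℝ) ^ n * ∑ j, ‖x j‖ ^ p := by
    have : ∀ (a : Fin n → Bool) (j : Fin n),
        ‖cubeMap x (flipAt j a) - cubeMap x a‖ ^ p = ‖x j‖ ^ p := by
      intro a j
      rw [cubeMap_flipAt, add_sub_cancel_left, norm_sg_smul]
    simp_rw [this]
    simp
  rw [hR] at h1
  have hL : (2 : ℝ) ^ n * ∑ j, ∑ k, (if k = j then 0 else ‖x j + x k‖ ^ p + ‖x j - x k‖ ^ p) ≤
      2 * ∑ a : Fin n → Bool, ∑ j, ∑ k,
        ‖cubeMap x (flipAt k (flipAt j a)) - cubeMap x a‖ ^ p := by
    rw [Finset.sum_comm (s := (Finset.univ : Finset (Fin n → Bool)))]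
    simp_rw [Finset.mul_sum]
    refine Finset.sum_le_sum fun j _ => ?_
    rw [Finset.sum_comm (s := (Finset.univ : Finset (Fin n → Bool)))]
    refine Finset.sum_le_sum fun k _ => ?_
    by_cases hjk : k = j
    · simp only [hjk, if_true, mul_zero]
      refine Finset.sum_nonneg fun a _ => ?_
      positivity
    · simp only [hjk, if_false]
      rw [← pair_sum x p hjk, Finset.mul_sum]
  have h2n : (0 : ℝ) < 2 ^ n := by positivity
  have : (2 : ℝ) ^ n * ∑ j, ∑ k, (if k = j then 0 else ‖x j + x k‖ ^ p + ‖x j - x k‖ ^ p) ≤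
      (2 : ℝ) ^ n * (4 * K ^ p * (n : ℝ) * ∑ j, ‖x j‖ ^ p) := by
    calc _ ≤ 2 * ∑ a : Fin n → Bool, ∑ j, ∑ k,
        ‖cubeMap x (flipAt k (flipAt j a)) - cubeMap x a‖ ^ p := hL
      _ ≤ 2 * (K ^ p * 2 * (Fintype.card (Fin n) : ℝ) * ((2 : ℝ) ^ n * ∑ j, ‖x j‖ ^ p)) := by
        linarith
      _ = _ := by
        rw [Fintype.card_fin]; ring
  exact le_of_mul_le_mul_left this h2n

end Vale.Agent.P125
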