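import Mathlib

namespace Vale.Agent.P125

structure IsRevChain {S : Type} [Fintype S] (π : S → ℝ) (P : Matrix S S ℝ) : Prop where
  pi_nonneg : ∀ i, 0 ≤ π i
  pi_sum : ∑ i, π i = 1
  P_nonneg : ∀ i j, 0 ≤ P i j
  P_sum : ∀ i, ∑ j, P i j = 1
  reversible : ∀ i j, π i * P i j = π j * P j i

def HasMarkovTypeWith (X : Type*) [NormedAddCommGroup X] (p K : ℝ) : Prop :=
  ∀ (S : Type) [Fintype S] [DecidableEq S] (π : S → ℝ) (P : Matrix S S ℝ),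
    IsRevChain π P → ∀ (f : S → X) (t : ℕ), 1 ≤ t →
      ∑ i, ∑ j, π i * (P ^ t) i j * ‖f j - f i‖ ^ p ≤
        K ^ p * (t : ℝ) * ∑ i, ∑ j, π i * P i j * ‖f j - f i‖ ^ p

def FinitelyRepresentable (Y X : Type*) [NormedAddCommGroup Y] [NormedSpace ℝ Y]
    [NormedAddCommGroup X] [NormedSpace ℝ X] : Prop :=
  ∀ E : Submodule ℝ Y, FiniteDimensional ℝ E → ∀ ε : ℝ, 0 < ε →
    ∃ T : E →ₗ[ℝ] X, ∀ y : E, ‖y‖ ≤ ‖T y‖ ∧ ‖T y‖ ≤ (1 + ε) * ‖y‖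

def IsReflexiveSpace (Y : Type*) [NormedAddCommGroup Y] [NormedSpace ℝ Y] : Prop :=
  Function.Surjective (NormedSpace.inclusionInDoubleDual ℝ Y)

end Vale.Agent.P125
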