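import Vale.Agent.P125.Defs

namespace Vale.Agent.P125

open Finset

variable {X : Type*} [NormedAddCommGroup X] [NormedSpace ℝ X]

lemma goldstine_approx (Φ : StrongDual ℝ (StrongDual ℝ X)) (hΦ : ‖Φ‖ ≤ 1)
    {ι : Type*} [Fintype ι] (g : ι → StrongDual ℝ X) {η : ℝ} (hη : 0 < η) :
    ∃ x : X, ‖x‖ ≤ 1 ∧ ∀ i, |g i x - Φ (g i)| < η := by
  classical
  let T : X →ₗ[ℝ] (ι → ℝ) := LinearMap.pi fun i => (g i).toLinearMap
  have hT : ∀ x i, T x i = g i x := fun x i => rfl
  let B : Set X := Metric.closedBall 0 1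
  let C : Set (ι → ℝ) := closure (T '' B)
  have hCconv : Convex ℝ C := ((convex_closedBall (0 : X) 1).linear_image T).closure
  have hCclosed : IsClosed C := isClosed_closure
  let v : ι → ℝ := fun i => Φ (g i)
  by_cases hv : v ∈ C
  · obtain ⟨c, hc, hd⟩ := Metric.mem_closure_iff.1 hv η hη
    obtain ⟨x, hx, rfl⟩ := hc
    refine ⟨x, by simpa [B] using hx, fun i => ?_⟩
    have := (dist_pi_lt_iff hη).1 hd i
    rw [Real.dist_eq, abs_sub_comm] at this
    simpa [hT] using this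
  · exfalso
    obtain ⟨F, u, hFu, huF⟩ := geometric_hahn_banach_closed_point hCconv hCclosed hv
    let a : ι → ℝ := fun i => F (fun j => if i = j then 1 else 0)
    have hF : ∀ w : ι → ℝ, F w = ∑ i, w i * a i := by
      intro w
      have := LinearMap.pi_apply_eq_sum_univ F.toLinearMap w
      simpa [a, smul_eq_mul] using this
    let G : StrongDual ℝ X := ∑ i, a i • g i
    have hG : ∀ x, G x = F (T x) := by
      intro x
      rw [hF]
      simp [G, hT, mul_comm]
    have hΦG : Φ G = F v := by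
      rw [hF]
      simp [G, v, mul_comm]
    have hball : ∀ x : X, ‖x‖ ≤ 1 → G x < u := by
      intro x hx
      rw [hG]
      exact hFu _ (subset_closure ⟨x, by simpa [B] using hx, rfl⟩)
    have hu : 0 ≤ u := by
      have := hball 0 (by simp)
      simpa using this.le
    have hGn : ‖G‖ ≤ u := by
      refine ContinuousLinearMap.opNorm_le_of_unit_norm hu fun x hx => ?_
      rw [Real.norm_eq_abs, abs_le]
      constructor
      · have := hball (-x) (by simp [hx])
        simp only [map_neg] at this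
        linarith
      · exact (hball x hx.le).le
    have : Φ G ≤ u := by
      calc Φ G ≤ ‖Φ G‖ := Real.le_norm_self _
        _ ≤ ‖Φ‖ * ‖G‖ := Φ.le_opNorm G
        _ ≤ 1 * u := by
          apply mul_le_mul hΦ hGn (norm_nonneg _) zero_le_one
        _ = u := one_mul u
    rw [hΦG] at this
    linarith

lemma exists_functional_gt (Ψ : StrongDual ℝ (StrongDual ℝ X)) {θ : ℝ} (h : θ < ‖Ψ‖) :
    ∃ g : StrongDual ℝ X, ‖g‖ ≤ 1 ∧ θ < Ψ g := by
  obtain ⟨g, hg, hθ⟩ := Ψ.exists_lt_apply_of_lt_opNorm h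
  rw [Real.norm_eq_abs] at hθ
  rcases le_total 0 (Ψ g) with h0 | h0
  · exact ⟨g, hg.le, by rwa [abs_of_nonneg h0] at hθ⟩
  · refine ⟨-g, by simpa using hg.le, ?_⟩
    rw [abs_of_nonpos h0] at hθ
    simpa using hθ

lemma separated_family (Φ : StrongDual ℝ (StrongDual ℝ X)) (hΦ : ‖Φ‖ ≤ 1) {θ δ : ℝ}
    (hθ : 0 ≤ θ) (hfar : ∀ x : X, θ < ‖Φ - NormedSpace.inclusionInDoubleDual ℝ X x‖)
    (f : StrongDual ℝ X) (hf : 1 - δ < Φ f) (n : ℕ) :
    ∃ s : Finset X, s.card = n ∧ (∀ x ∈ s, ‖x‖ ≤ 1 ∧ 1 - δ < f x) ∧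
      ∀ x ∈ s, ∀ y ∈ s, x ≠ y → θ < ‖x - y‖ := by
  classical
  induction n with
  | zero => exact ⟨∅, by simp⟩
  | succ n ih =>
    obtain ⟨s, hcard, hs1, hs2⟩ := ih
    have hg : ∀ x : X, ∃ g : StrongDual ℝ X, ‖g‖ ≤ 1 ∧
        θ < (Φ - NormedSpace.inclusionInDoubleDual ℝ X x) g :=
      fun x => exists_functional_gt _ (hfar x)
    choose g hg1 hg2 using hg
    let fam : Option s → StrongDual ℝ X := fun o => o.elim f (fun x => g x)
    let marg : Option s → ℝ := fun o =>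
      o.elim (Φ f - (1 - δ)) (fun x => (Φ - NormedSpace.inclusionInDoubleDual ℝ X x) (g x) - θ)
    have hmarg : ∀ o, 0 < marg o := by
      intro o
      cases o with
      | none => simpa [marg] using hf
      | some x => simpa [marg] using hg2 x
    obtain ⟨η, hη, hηle⟩ : ∃ η : ℝ, 0 < η ∧ ∀ o, η ≤ marg o := by
      have hne : (Finset.univ : Finset (Option s)).Nonempty := ⟨none, Finset.mem_univ _⟩
      refine ⟨Finset.univ.inf' hne marg, ?_, fun o =>
        Finset.inf'_le _ (Finset.mem_univ o)⟩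
      exact (Finset.lt_inf'_iff hne).2 fun o _ => hmarg o
    obtain ⟨z, hz1, hz2⟩ := goldstine_approx Φ hΦ fam hη
    have hzf : 1 - δ < f z := by
      have h1 := hz2 none
      have h2 := hηle none
      simp only [fam, marg, Option.elim] at h1 h2
      have := (abs_lt.1 h1).1
      linarith
    have hzs : ∀ x ∈ s, θ < ‖z - x‖ := by
      intro x hx
      have h1 := hz2 (some ⟨x, hx⟩)
      have h2 := hηle (some ⟨x, hx⟩)
      simp only [fam, marg, Option.elim, sub_apply,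
        NormedSpace.dual_def] at h1 h2
      have h3 := (abs_lt.1 h1).1
      have h4 : θ < g x (z - x) := by
        rw [map_sub]; linarith
      calc θ < g x (z - x) := h4
        _ ≤ ‖g x (z - x)‖ := Real.le_norm_self _
        _ ≤ ‖g x‖ * ‖z - x‖ := (g x).le_opNorm _
        _ ≤ 1 * ‖z - x‖ := by
          apply mul_le_mul_of_nonneg_right (hg1 x) (norm_nonneg _)
        _ = ‖z - x‖ := one_mul _
    have hznot : z ∉ s := by
      intro hz
      have := hzs z hz
      simp at this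
      linarith
    refine ⟨insert z s, by rw [Finset.card_insert_of_notMem hznot, hcard], ?_, ?_⟩
    · intro x hx
      rcases Finset.mem_insert.1 hx with rfl | hx
      · exact ⟨hz1, hzf⟩
      · exact hs1 x hx
    · intro x hx y hy hxy
      rcases Finset.mem_insert.1 hx with hxz | hx'
      · rcases Finset.mem_insert.1 hy with hyz | hy'
        · exact absurd (hxz.trans hyz.symm) hxy
        · rw [hxz]; exact hzs y hy'
      · rcases Finset.mem_insert.1 hy with hyz | hy'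
        · rw [hyz, norm_sub_rev]; exact hzs x hx'
        · exact hs2 x hx' y hy' hxy

lemma far_point {X E : Type*} [NormedAddCommGroup X] [NormedSpace ℝ X] [CompleteSpace X]
    [NormedAddCommGroup E] [NormedSpace ℝ E] (ι : X →ₗᵢ[ℝ] E) (hι : ¬ Function.Surjective ι)
    {θ : ℝ} (hθ : θ < 1) : ∃ Φ : E, ‖Φ‖ = 1 ∧ ∀ x : X, θ < ‖Φ - ι x‖ := by
  let F : Subspace ℝ E := LinearMap.range ι.toLinearMap
  have hFc : IsClosed (F : Set E) := by
    have : (F : Set E) = Set.range ι := by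
      ext y; simp [F]
    rw [this]
    exact (ι.isometry.isUniformInducing.isComplete_range).isClosed
  have hF : ∃ y, y ∉ F := by
    by_contra hcon
    push Not at hcon
    apply hι
    intro y
    obtain ⟨x, hx⟩ := hcon y
    exact ⟨x, hx⟩
  obtain ⟨r, hr1, hr2⟩ := exists_between hθ
  obtain ⟨y₀, hy₀, hy⟩ := riesz_lemma hFc hF hr2
  have hy₀n : 0 < ‖y₀‖ := by
    rw [norm_pos_iff]
    rintro rfl
    exact hy₀ F.zero_mem
  refine ⟨‖y₀‖⁻¹ • y₀, ?_, fun x => ?_⟩
  · rw [norm_smul, norm_inv, norm_norm, inv_mul_cancel₀ hy₀n.ne']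
  · have h1 : ι (‖y₀‖ • x) ∈ F := ⟨_, rfl⟩
    have h2 := hy _ h1
    have h3 : ‖y₀‖⁻¹ • y₀ - ι x = ‖y₀‖⁻¹ • (y₀ - ι (‖y₀‖ • x)) := by
      rw [smul_sub, map_smul, smul_smul, inv_mul_cancel₀ hy₀n.ne', one_smul]
    rw [h3, norm_smul, norm_inv, norm_norm]
    calc θ < r := hr1
      _ = ‖y₀‖⁻¹ * (r * ‖y₀‖) := by field_simp
      _ ≤ ‖y₀‖⁻¹ * ‖y₀ - ι (‖y₀‖ • x)‖ := by
        apply mul_le_mul_of_nonneg_left h2 (by positivity)

lemma exists_far_bidual [CompleteSpace X] (hX : ¬ IsReflexiveSpace X) {θ : ℝ} (hθ : θ < 1) :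
    ∃ Φ : StrongDual ℝ (StrongDual ℝ X), ‖Φ‖ = 1 ∧
      ∀ x : X, θ < ‖Φ - NormedSpace.inclusionInDoubleDual ℝ X x‖ := by
  have hX' : ¬ Function.Surjective (NormedSpace.inclusionInDoubleDual ℝ X) := hX
  have h := far_point (X := X) (E := StrongDual ℝ (StrongDual ℝ X))
    (NormedSpace.inclusionInDoubleDualLi ℝ (E := X)) hX' hθ
  exact h

theorem nonreflexive_family [CompleteSpace X] (hX : ¬ IsReflexiveSpace X) {s : ℝ}
    (hs0 : 0 < s) (hs1 : s < 1) (n : ℕ) :
    ∃ x : Fin n → X, (∀ i, ‖x i‖ ≤ 1) ∧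
      ∀ i j, i ≠ j → 2 - 2 * s < ‖x i + x j‖ ∧ 1 - s < ‖x i - x j‖ := by
  obtain ⟨Φ, hΦ, hfar⟩ := exists_far_bidual hX (θ := 1 - s) (by linarith)
  obtain ⟨f, hf1, hf2⟩ := exists_functional_gt Φ (θ := 1 - s) (by rw [hΦ]; linarith)
  obtain ⟨S, hcard, hS1, hS2⟩ := separated_family Φ hΦ.le (by linarith) hfar f hf2 n
  let e := S.equivFinOfCardEq hcard
  refine ⟨fun i => (e.symm i : X), fun i => (hS1 _ (e.symm i).2).1, fun i j hij => ⟨?_, ?_⟩⟩
  · have h1 := (hS1 _ (e.symm i).2).2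
    have h2 := (hS1 _ (e.symm j).2).2
    calc 2 - 2 * s < f ((e.symm i : X) + (e.symm j : X)) := by rw [map_add]; linarith
      _ ≤ ‖f ((e.symm i : X) + (e.symm j : X))‖ := Real.le_norm_self _
      _ ≤ ‖f‖ * ‖(e.symm i : X) + (e.symm j : X)‖ := f.le_opNorm _
      _ ≤ 1 * ‖(e.symm i : X) + (e.symm j : X)‖ := by
        apply mul_le_mul_of_nonneg_right hf1 (norm_nonneg _)
      _ = _ := one_mul _
  · apply hS2 _ (e.symm i).2 _ (e.symm j).2
    intro h
    apply hij
    exact e.symm.injective (Subtype.ext h)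

end Vale.Agent.P125
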