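import Vale.Agent.P125.Cube
import Vale.Agent.P125.Reflexive

namespace Vale.Agent.P125

open Finset Filter Topology

lemma exists_small_param {p c : ℝ} (hc : c < 1 + 2 ^ p) :
    ∃ s : ℝ, 0 < s ∧ s < 1 ∧ c < (1 - s) * ((2 - 2 * s) ^ p + (1 - s) ^ p) := by
  have hcont : ContinuousAt (fun s : ℝ => (1 - s) * ((2 - 2 * s) ^ p + (1 - s) ^ p)) 0 := by
    apply ContinuousAt.mul (by fun_prop)
    apply ContinuousAt.add
    · exact ContinuousAt.rpow_const (by fun_prop) (Or.inl (by norm_num))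
    · exact ContinuousAt.rpow_const (by fun_prop) (Or.inl (by norm_num))
  have h0 : c < (fun s : ℝ => (1 - s) * ((2 - 2 * s) ^ p + (1 - s) ^ p)) 0 := by
    simp only [sub_zero, mul_zero, one_mul, Real.one_rpow]
    linarith
  have hev := hcont.eventually (lt_mem_nhds h0)
  obtain ⟨ε, hε, hball⟩ := Metric.eventually_nhds_iff.1 hev
  refine ⟨min (ε / 2) (1 / 2), by positivity, ?_, ?_⟩
  · exact lt_of_le_of_lt (min_le_right _ _) (by norm_num)
  · apply hball
    rw [Real.dist_eq, sub_zero, abs_of_pos (by positivity)]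
    exact lt_of_le_of_lt (min_le_left _ _) (by linarith)

theorem reflexive_of_small_markov {X : Type*} [NormedAddCommGroup X] [NormedSpace ℝ X]
    [CompleteSpace X] {p K : ℝ} (hp : 0 < p) (hK : 0 ≤ K) (hKp : K ^ p < (1 + 2 ^ p) / 4)
    (h : HasMarkovTypeWith X p K) : IsReflexiveSpace X := by
  by_contra hX
  obtain ⟨s, hs0, hs1, hs⟩ := exists_small_param (p := p) (c := 4 * K ^ p) (by linarith)
  obtain ⟨n, hn⟩ := exists_nat_gt (1 / s)
  have hn0 : (0 : ℝ) < n := lt_trans (by positivity) hn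
  obtain ⟨x, hx1, hx2⟩ := nonreflexive_family hX hs0 hs1 n
  have hKp0 : 0 ≤ K ^ p := Real.rpow_nonneg hK p
  set c : ℝ := (2 - 2 * s) ^ p + (1 - s) ^ p with hc
  have hc0 : 0 ≤ c := by
    have h1 : (0 : ℝ) ≤ 2 - 2 * s := by linarith
    have h2 : (0 : ℝ) ≤ 1 - s := by linarith
    positivity
  have hpair := pair_ineq h x
  have hR : ∑ j, ‖x j‖ ^ p ≤ n := by
    calc ∑ j, ‖x j‖ ^ p ≤ ∑ _j : Fin n, (1 : ℝ) :=
          Finset.sum_le_sum fun j _ => Real.rpow_le_one (norm_nonneg _) (hx1 j) hp.le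
      _ = n := by simp
  have hL : (n : ℝ) * ((n : ℝ) - 1) * c ≤
      ∑ j, ∑ k, (if k = j then 0 else ‖x j + x k‖ ^ p + ‖x j - x k‖ ^ p) := by
    have h1 : ∀ j : Fin n, ((n : ℝ) - 1) * c = ∑ k : Fin n, (if k = j then 0 else c) := by
      intro j
      have : ∀ k : Fin n, (if k = j then 0 else c) = c - (if k = j then c else 0) := by
        intro k; split_ifs <;> simp
      simp_rw [this, Finset.sum_sub_distrib]
      simp
      ring
    calc (n : ℝ) * ((n : ℝ) - 1) * c = ∑ _j : Fin n, ((n : ℝ) - 1) * c := by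
          simp; ring
      _ = ∑ j : Fin n, ∑ k : Fin n, (if k = j then 0 else c) :=
          Finset.sum_congr rfl fun j _ => h1 j
      _ ≤ _ := by
          refine Finset.sum_le_sum fun j _ => Finset.sum_le_sum fun k _ => ?_
          by_cases hkj : k = j
          · simp [hkj]
          · simp only [hkj, if_false]
            have := hx2 j k (fun e => hkj e.symm)
            apply add_le_add
            · exact Real.rpow_le_rpow (by linarith) this.1.le hp.le
            · exact Real.rpow_le_rpow (by linarith) this.2.le hp.le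
  have h3 : (n : ℝ) * ((n : ℝ) - 1) * c ≤ 4 * K ^ p * n * n := by
    calc _ ≤ _ := hL
      _ ≤ 4 * K ^ p * (n : ℝ) * ∑ j, ‖x j‖ ^ p := hpair
      _ ≤ 4 * K ^ p * (n : ℝ) * n := by
        apply mul_le_mul_of_nonneg_left hR (by positivity)
  have h4 : ((n : ℝ) - 1) * c ≤ 4 * K ^ p * n := by
    have : (n : ℝ) * (((n : ℝ) - 1) * c) ≤ (n : ℝ) * (4 * K ^ p * n) := by
      calc _ = (n : ℝ) * ((n : ℝ) - 1) * c := by ring
        _ ≤ _ := h3
        _ = _ := by ring
    exact le_of_mul_le_mul_left this hn0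
  have h5 : (1 - s) * (n : ℝ) ≤ (n : ℝ) - 1 := by
    have : 1 < s * n := by
      rw [div_lt_iff₀ hs0] at hn
      linarith
    linarith
  have h6 : (n : ℝ) * ((1 - s) * c) ≤ (n : ℝ) * (4 * K ^ p) := by
    calc (n : ℝ) * ((1 - s) * c) = ((1 - s) * (n : ℝ)) * c := by ring
      _ ≤ ((n : ℝ) - 1) * c := mul_le_mul_of_nonneg_right h5 hc0
      _ ≤ 4 * K ^ p * n := h4
      _ = _ := by ring
  have h7 := le_of_mul_le_mul_left h6 hn0
  linarith

theorem markovType_of_finRep {X Y : Type*} [NormedAddCommGroup X] [NormedSpace ℝ X]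
    [NormedAddCommGroup Y] [NormedSpace ℝ Y] {p K : ℝ} (hp : 0 ≤ p) (hK : 0 ≤ K)
    (h : HasMarkovTypeWith X p K) (hYX : FinitelyRepresentable Y X) :
    HasMarkovTypeWith Y p K := by
  intro S _ _ π P hch f t ht
  let E : Submodule ℝ Y := Submodule.span ℝ (Set.range f)
  have hE : FiniteDimensional ℝ E := FiniteDimensional.span_of_finite ℝ (Set.finite_range f)
  let fE : S → E := fun i => ⟨f i, Submodule.subset_span (Set.mem_range_self i)⟩
  have hfE : ∀ i j, ‖fE j - fE i‖ = ‖f j - f i‖ := fun i j => rfl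
  have hKp0 : 0 ≤ K ^ p := Real.rpow_nonneg hK p
  have hPt : ∀ i j, 0 ≤ (P ^ t) i j := Matrix.pow_apply_nonneg hch.P_nonneg t
  set A := ∑ i, ∑ j, π i * (P ^ t) i j * ‖f j - f i‖ ^ p with hA
  set R := ∑ i, ∑ j, π i * P i j * ‖f j - f i‖ ^ p with hR
  have key : ∀ ε : ℝ, 0 < ε → A ≤ (1 + ε) ^ p * (K ^ p * (t : ℝ) * R) := by
    intro ε hε
    obtain ⟨T, hT⟩ := hYX E hE ε hε
    have hX := h S π P hch (fun i => T (fE i)) t ht
    have hlow : ∀ i j, ‖f j - f i‖ ^ p ≤ ‖T (fE j) - T (fE i)‖ ^ p := by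
      intro i j
      rw [← map_sub, ← hfE]
      exact Real.rpow_le_rpow (norm_nonneg _) (hT _).1 hp
    have hup : ∀ i j, ‖T (fE j) - T (fE i)‖ ^ p ≤ (1 + ε) ^ p * ‖f j - f i‖ ^ p := by
      intro i j
      rw [← map_sub, ← hfE, ← Real.mul_rpow (by linarith) (norm_nonneg _)]
      exact Real.rpow_le_rpow (norm_nonneg _) (hT _).2 hp
    calc A ≤ ∑ i, ∑ j, π i * (P ^ t) i j * ‖T (fE j) - T (fE i)‖ ^ p := by
          refine Finset.sum_le_sum fun i _ => Finset.sum_le_sum fun j _ => ?_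
          exact mul_le_mul_of_nonneg_left (hlow i j)
            (mul_nonneg (hch.pi_nonneg i) (hPt i j))
      _ ≤ K ^ p * (t : ℝ) * ∑ i, ∑ j, π i * P i j * ‖T (fE j) - T (fE i)‖ ^ p := hX
      _ ≤ K ^ p * (t : ℝ) * ((1 + ε) ^ p * R) := by
          apply mul_le_mul_of_nonneg_left _ (by positivity)
          rw [hR, Finset.mul_sum]
          refine Finset.sum_le_sum fun i _ => ?_
          rw [Finset.mul_sum]
          refine Finset.sum_le_sum fun j _ => ?_
          calc π i * P i j * ‖T (fE j) - T (fE i)‖ ^ p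
              ≤ π i * P i j * ((1 + ε) ^ p * ‖f j - f i‖ ^ p) :=
                mul_le_mul_of_nonneg_left (hup i j)
                  (mul_nonneg (hch.pi_nonneg i) (hch.P_nonneg i j))
            _ = _ := by ring
      _ = _ := by ring
  have hlim : Tendsto (fun ε : ℝ => (1 + ε) ^ p * (K ^ p * (t : ℝ) * R)) (𝓝[>] 0)
      (𝓝 (K ^ p * (t : ℝ) * R)) := by
    have hc : ContinuousAt (fun ε : ℝ => (1 + ε) ^ p * (K ^ p * (t : ℝ) * R)) 0 := by
      apply ContinuousAt.mul _ continuousAt_const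
      exact ContinuousAt.rpow_const (by fun_prop) (Or.inl (by norm_num))
    have := hc.tendsto
    simp only [add_zero, Real.one_rpow, one_mul] at this
    exact this.mono_left nhdsWithin_le_nhds
  refine ge_of_tendsto hlim ?_
  filter_upwards [self_mem_nhdsWithin] with ε hε
  exact key ε hε

theorem superreflexive_of_small_markov {X : Type*} [NormedAddCommGroup X] [NormedSpace ℝ X]
    {p K : ℝ} (hp : 0 < p) (hK : 0 ≤ K) (hKp : K ^ p < (1 + 2 ^ p) / 4)
    (h : HasMarkovTypeWith X p K) (Y : Type*) [NormedAddCommGroup Y] [NormedSpace ℝ Y]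
    [CompleteSpace Y] (hYX : FinitelyRepresentable Y X) : IsReflexiveSpace Y :=
  reflexive_of_small_markov hp hK hKp (markovType_of_finRep hp.le hK h hYX)

end Vale.Agent.P125
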